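import Mathlib

/-!
# P340: pure type systems (de Bruijn presentation)

Expressions modulo renaming of bound variables are represented by de Bruijn indices; a context is
the list of the types of its variables, the most recently declared variable first.
-/

namespace Vale.Agent.P340

universe u

/-- Expressions `x | s | M N | λ x:A. M | Π x:A. B` over a set `S` of sorts. -/
inductive Tm (S : Type u) : Type u
  | var : ℕ → Tm S
  | sort : S → Tm S
  | app : Tm S → Tm S → Tm S
  | lam : Tm S → Tm S → Tm S
  | pi : Tm S → Tm S → Tm S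

variable {S : Type u}

/-- Shift by one every free variable with index at least `c`. -/
def Tm.lift : ℕ → Tm S → Tm S
  | c, .var n => if n < c then .var n else .var (n + 1)
  | _, .sort s => .sort s
  | c, .app M N => .app (Tm.lift c M) (Tm.lift c N)
  | c, .lam A M => .lam (Tm.lift c A) (Tm.lift (c + 1) M)
  | c, .pi A B => .pi (Tm.lift c A) (Tm.lift (c + 1) B)

/-- `Tm.subst k N M` is `M[k := N]`: replace variable `k` by `N`, lower the variables above `k`. -/
def Tm.subst : ℕ → Tm S → Tm S → Tm S
  | k, N, .var n => if n < k then .var n else if n = k then N else .var (n - 1)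
  | _, _, .sort s => .sort s
  | k, N, .app M M' => .app (Tm.subst k N M) (Tm.subst k N M')
  | k, N, .lam A M => .lam (Tm.subst k N A) (Tm.subst (k + 1) (Tm.lift 0 N) M)
  | k, N, .pi A B => .pi (Tm.subst k N A) (Tm.subst (k + 1) (Tm.lift 0 N) B)

/-- One-step beta reduction: the compatible closure of `(λ x:A. M) N → M[x := N]`. -/
inductive Beta : Tm S → Tm S → Prop
  | beta (A M N : Tm S) : Beta (.app (.lam A M) N) (Tm.subst 0 N M)
  | appL {M M' : Tm S} (N : Tm S) : Beta M M' → Beta (.app M N) (.app M' N)
  | appR (M : Tm S) {N N' : Tm S} : Beta N N' → Beta (.app M N) (.app M N')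
  | lamA {A A' : Tm S} (M : Tm S) : Beta A A' → Beta (.lam A M) (.lam A' M)
  | lamM (A : Tm S) {M M' : Tm S} : Beta M M' → Beta (.lam A M) (.lam A M')
  | piA {A A' : Tm S} (B : Tm S) : Beta A A' → Beta (.pi A B) (.pi A' B)
  | piB (A : Tm S) {B B' : Tm S} : Beta B B' → Beta (.pi A B) (.pi A B')

/-- A pure type specification: axioms and rules over the set `S` of sorts. -/
structure Spec (S : Type u) where
  ax : S → S → Prop
  rule : S → S → S → Prop

/-- The typing relation `Γ ⊢ M : B` of the pure type system `P` (the seven rules). -/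
inductive Typing (P : Spec S) : List (Tm S) → Tm S → Tm S → Prop
  | ax {s₁ s₂ : S} : P.ax s₁ s₂ → Typing P [] (.sort s₁) (.sort s₂)
  | var {Γ : List (Tm S)} {A : Tm S} {s : S} :
      Typing P Γ A (.sort s) → Typing P (A :: Γ) (.var 0) (Tm.lift 0 A)
  | weak {Γ : List (Tm S)} {M B A : Tm S} {s : S} :
      Typing P Γ M B → Typing P Γ A (.sort s) → Typing P (A :: Γ) (Tm.lift 0 M) (Tm.lift 0 B)
  | prod {Γ : List (Tm S)} {A B : Tm S} {s₁ s₂ s₃ : S} :
      P.rule s₁ s₂ s₃ → Typing P Γ A (.sort s₁) → Typing P (A :: Γ) B (.sort s₂) →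
      Typing P Γ (.pi A B) (.sort s₃)
  | abs {Γ : List (Tm S)} {A M B : Tm S} {s : S} :
      Typing P (A :: Γ) M B → Typing P Γ (.pi A B) (.sort s) → Typing P Γ (.lam A M) (.pi A B)
  | app {Γ : List (Tm S)} {M N A B : Tm S} :
      Typing P Γ M (.pi A B) → Typing P Γ N A → Typing P Γ (.app M N) (Tm.subst 0 N B)
  | conv {Γ : List (Tm S)} {M A B : Tm S} {s : S} :
      Typing P Γ M A → Typing P Γ B (.sort s) → Relation.EqvGen Beta A B → Typing P Γ M B

/-- An expression is legal if it is the subject or the type of a derivable judgment. -/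
def Legal (P : Spec S) (M : Tm S) : Prop :=
  ∃ (Γ : List (Tm S)) (N : Tm S), Typing P Γ M N ∨ Typing P Γ N M

/-- Beta-normal forms. -/
def Normal (M : Tm S) : Prop := ∀ N, ¬ Beta M N

/-- Weak normalization: every legal expression reduces to a normal form. -/
def WN (P : Spec S) : Prop :=
  ∀ M, Legal P M → ∃ N, Relation.ReflTransGen Beta M N ∧ Normal N

/-- Strong normalization: no legal expression starts an infinite reduction sequence. -/
def SN (P : Spec S) : Prop :=
  ∀ M, Legal P M → ¬ ∃ r : ℕ → Tm S, r 0 = M ∧ ∀ n, Beta (r n) (r (n + 1))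

end Vale.Agent.P340
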