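import Vale.Agent.Lib.P340.Defs

/-!
# P340: reduction of the Barendregt-Geuvers-Klop conjecture to finite sets of sorts
-/

namespace Vale.Agent.P340

universe u v

variable {S : Type u} {T : Type v}

/-- Rename the sorts of an expression. -/
def Tm.map (φ : S → T) : Tm S → Tm T
  | .var n => .var n
  | .sort s => .sort (φ s)
  | .app M N => .app (Tm.map φ M) (Tm.map φ N)
  | .lam A M => .lam (Tm.map φ A) (Tm.map φ M)
  | .pi A B => .pi (Tm.map φ A) (Tm.map φ B)

lemma map_lift (φ : S → T) (M : Tm S) : ∀ c, Tm.map φ (Tm.lift c M) = Tm.lift c (Tm.map φ M) := by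
  induction M with
  | var n => intro c; simp only [Tm.lift, Tm.map]; split_ifs <;> rfl
  | sort s => intro c; rfl
  | app M N ihM ihN => intro c; simp only [Tm.lift, Tm.map, ihM, ihN]
  | lam A M ihA ihM => intro c; simp only [Tm.lift, Tm.map, ihA, ihM]
  | pi A B ihA ihB => intro c; simp only [Tm.lift, Tm.map, ihA, ihB]

lemma map_subst (φ : S → T) (M : Tm S) :
    ∀ k N, Tm.map φ (Tm.subst k N M) = Tm.subst k (Tm.map φ N) (Tm.map φ M) := by
  induction M with
  | var n => intro k N; simp only [Tm.subst, Tm.map]; split_ifs <;> rfl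
  | sort s => intro k N; rfl
  | app M N ihM ihN => intro k N'; simp only [Tm.subst, Tm.map, ihM, ihN]
  | lam A M ihA ihM => intro k N; simp only [Tm.subst, Tm.map, ihA, ihM, map_lift]
  | pi A B ihA ihB => intro k N; simp only [Tm.subst, Tm.map, ihA, ihB, map_lift]

lemma Beta.map (φ : S → T) {M N : Tm S} (h : Beta M N) : Beta (Tm.map φ M) (Tm.map φ N) := by
  induction h with
  | beta A M N => simp only [Tm.map, map_subst]; exact Beta.beta _ _ _
  | appL N _ ih => exact Beta.appL _ ih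
  | appR M _ ih => exact Beta.appR _ ih
  | lamA M _ ih => exact Beta.lamA _ ih
  | lamM A _ ih => exact Beta.lamM _ ih
  | piA B _ ih => exact Beta.piA _ ih
  | piB A _ ih => exact Beta.piB _ ih

lemma eqvGen_map (φ : S → T) {M N : Tm S} (h : Relation.EqvGen Beta M N) :
    Relation.EqvGen Beta (Tm.map φ M) (Tm.map φ N) := by
  induction h with
  | rel _ _ h => exact Relation.EqvGen.rel _ _ (h.map φ)
  | refl _ => exact Relation.EqvGen.refl _
  | symm _ _ _ ih => exact Relation.EqvGen.symm _ _ ih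
  | trans _ _ _ _ _ ih1 ih2 => exact Relation.EqvGen.trans _ _ _ ih1 ih2

/-- A morphism of specifications preserves typing. -/
lemma Typing.map {P : Spec S} {Q : Spec T} (φ : S → T)
    (hax : ∀ s₁ s₂, P.ax s₁ s₂ → Q.ax (φ s₁) (φ s₂))
    (hrule : ∀ s₁ s₂ s₃, P.rule s₁ s₂ s₃ → Q.rule (φ s₁) (φ s₂) (φ s₃))
    {Γ : List (Tm S)} {M B : Tm S} (h : Typing P Γ M B) :
    Typing Q (Γ.map (Tm.map φ)) (Tm.map φ M) (Tm.map φ B) := by
  induction h with
  | ax h => exact Typing.ax (hax _ _ h)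
  | var _ ih =>
    simp only [List.map_cons, map_lift]
    exact Typing.var ih
  | weak _ _ ih1 ih2 =>
    simp only [List.map_cons, map_lift]
    exact Typing.weak ih1 ih2
  | prod hr _ _ ih1 ih2 => exact Typing.prod (hrule _ _ _ hr) ih1 ih2
  | abs _ _ ih1 ih2 => exact Typing.abs ih1 ih2
  | app _ _ ih1 ih2 =>
    simp only [map_subst]
    exact Typing.app ih1 ih2
  | conv _ _ hc ih1 ih2 => exact Typing.conv ih1 ih2 (eqvGen_map φ hc)

lemma Typing.mono {P Q : Spec S}
    (hax : ∀ s₁ s₂, P.ax s₁ s₂ → Q.ax s₁ s₂)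
    (hrule : ∀ s₁ s₂ s₃, P.rule s₁ s₂ s₃ → Q.rule s₁ s₂ s₃)
    {Γ : List (Tm S)} {M B : Tm S} (h : Typing P Γ M B) : Typing Q Γ M B := by
  induction h with
  | ax h => exact Typing.ax (hax _ _ h)
  | var _ ih => exact Typing.var ih
  | weak _ _ ih1 ih2 => exact Typing.weak ih1 ih2
  | prod hr _ _ ih1 ih2 => exact Typing.prod (hrule _ _ _ hr) ih1 ih2
  | abs _ _ ih1 ih2 => exact Typing.abs ih1 ih2
  | app _ _ ih1 ih2 => exact Typing.app ih1 ih2
  | conv _ _ hc ih1 ih2 => exact Typing.conv ih1 ih2 hc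

/-- Reduction steps are reflected by renaming of sorts. -/
lemma Beta.reflect (φ : S → T) : ∀ (M : Tm S) (Z : Tm T), Beta (Tm.map φ M) Z →
    ∃ N, Beta M N ∧ Tm.map φ N = Z := by
  intro M
  induction M with
  | var n => intro Z h; simp only [Tm.map] at h; cases h
  | sort s => intro Z h; simp only [Tm.map] at h; cases h
  | app M N ihM ihN =>
    intro Z h
    simp only [Tm.map] at h
    generalize hM : Tm.map φ M = M' at h
    generalize hN : Tm.map φ N = N' at h
    cases h with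
    | beta A M₀ _ =>
      cases M with
      | lam A₁ M₁ =>
        simp only [Tm.map, Tm.lam.injEq] at hM
        refine ⟨Tm.subst 0 N M₁, Beta.beta _ _ _, ?_⟩
        rw [map_subst, hM.2, hN]
      | var n => simp [Tm.map] at hM
      | sort s => simp [Tm.map] at hM
      | app _ _ => simp [Tm.map] at hM
      | pi _ _ => simp [Tm.map] at hM
    | appL _ h' =>
      subst hM
      obtain ⟨M₂, h1, h2⟩ := ihM _ h'
      exact ⟨.app M₂ N, Beta.appL _ h1, by simp only [Tm.map, h2, hN]⟩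
    | appR _ h' =>
      subst hN
      obtain ⟨N₂, h1, h2⟩ := ihN _ h'
      exact ⟨.app M N₂, Beta.appR _ h1, by simp only [Tm.map, h2, hM]⟩
  | lam A M ihA ihM =>
    intro Z h
    simp only [Tm.map] at h
    cases h with
    | lamA _ h' =>
      obtain ⟨A₂, h1, h2⟩ := ihA _ h'
      exact ⟨.lam A₂ M, Beta.lamA _ h1, by simp only [Tm.map, h2]⟩
    | lamM _ h' =>
      obtain ⟨M₂, h1, h2⟩ := ihM _ h'
      exact ⟨.lam A M₂, Beta.lamM _ h1, by simp only [Tm.map, h2]⟩
  | pi A B ihA ihB =>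
    intro Z h
    simp only [Tm.map] at h
    cases h with
    | piA _ h' =>
      obtain ⟨A₂, h1, h2⟩ := ihA _ h'
      exact ⟨.pi A₂ B, Beta.piA _ h1, by simp only [Tm.map, h2]⟩
    | piB _ h' =>
      obtain ⟨B₂, h1, h2⟩ := ihB _ h'
      exact ⟨.pi A B₂, Beta.piB _ h1, by simp only [Tm.map, h2]⟩

lemma star_reflect (φ : S → T) (M : Tm S) (Z : Tm T)
    (h : Relation.ReflTransGen Beta (Tm.map φ M) Z) :
    ∃ N, Relation.ReflTransGen Beta M N ∧ Tm.map φ N = Z := by
  induction h with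
  | refl => exact ⟨M, Relation.ReflTransGen.refl, rfl⟩
  | tail _ hstep ih =>
    obtain ⟨N, h1, h2⟩ := ih
    subst h2
    obtain ⟨N₂, h3, h4⟩ := Beta.reflect φ _ _ hstep
    exact ⟨N₂, h1.tail h3, h4⟩

/-- The part of a specification that only mentions sorts of `F`. -/
def Spec.restrict (P : Spec S) (F : Finset S) : Spec S where
  ax s₁ s₂ := P.ax s₁ s₂ ∧ s₁ ∈ F ∧ s₂ ∈ F
  rule s₁ s₂ s₃ := P.rule s₁ s₂ s₃ ∧ s₁ ∈ F ∧ s₂ ∈ F ∧ s₃ ∈ F

lemma Typing.restrict_mono {P : Spec S} {F G : Finset S} (hFG : F ⊆ G)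
    {Γ : List (Tm S)} {M B : Tm S} (h : Typing (P.restrict F) Γ M B) :
    Typing (P.restrict G) Γ M B :=
  Typing.mono (P := P.restrict F) (Q := P.restrict G)
    (fun _ _ h => ⟨h.1, hFG h.2.1, hFG h.2.2⟩)
    (fun _ _ _ h => ⟨h.1, hFG h.2.1, hFG h.2.2.1, hFG h.2.2.2⟩) h

/-- A derivation uses only finitely many axioms and rules. -/
lemma Typing.exists_finite {P : Spec S} {Γ : List (Tm S)} {M B : Tm S} (h : Typing P Γ M B) :
    ∃ F : Finset S, F.Nonempty ∧ Typing (P.restrict F) Γ M B := by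
  classical
  induction h with
  | @ax s₁ s₂ h =>
    exact ⟨{s₁, s₂}, ⟨s₁, by simp⟩, Typing.ax ⟨h, by simp, by simp⟩⟩
  | var _ ih =>
    obtain ⟨F, hF, h1⟩ := ih
    exact ⟨F, hF, Typing.var h1⟩
  | weak _ _ ih1 ih2 =>
    obtain ⟨F, hF, h1⟩ := ih1
    obtain ⟨G, _, h2⟩ := ih2
    exact ⟨F ∪ G, hF.mono Finset.subset_union_left,
      Typing.weak (h1.restrict_mono Finset.subset_union_left)
        (h2.restrict_mono Finset.subset_union_right)⟩
  | @prod Γ A B s₁ s₂ s₃ hr _ _ ih1 ih2 =>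
    obtain ⟨F, hF, h1⟩ := ih1
    obtain ⟨G, _, h2⟩ := ih2
    refine ⟨F ∪ G ∪ {s₁, s₂, s₃}, hF.mono (by intro x hx; simp [hx]), ?_⟩
    exact Typing.prod ⟨hr, by simp, by simp, by simp⟩
      (h1.restrict_mono (by intro x hx; simp [hx]))
      (h2.restrict_mono (by intro x hx; simp [hx]))
  | abs _ _ ih1 ih2 =>
    obtain ⟨F, hF, h1⟩ := ih1
    obtain ⟨G, _, h2⟩ := ih2
    exact ⟨F ∪ G, hF.mono Finset.subset_union_left,
      Typing.abs (h1.restrict_mono Finset.subset_union_left)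
        (h2.restrict_mono Finset.subset_union_right)⟩
  | app _ _ ih1 ih2 =>
    obtain ⟨F, hF, h1⟩ := ih1
    obtain ⟨G, _, h2⟩ := ih2
    exact ⟨F ∪ G, hF.mono Finset.subset_union_left,
      Typing.app (h1.restrict_mono Finset.subset_union_left)
        (h2.restrict_mono Finset.subset_union_right)⟩
  | conv _ _ hc ih1 ih2 =>
    obtain ⟨F, hF, h1⟩ := ih1
    obtain ⟨G, _, h2⟩ := ih2
    exact ⟨F ∪ G, hF.mono Finset.subset_union_left,
      Typing.conv (h1.restrict_mono Finset.subset_union_left)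
        (h2.restrict_mono Finset.subset_union_right) hc⟩

/-- Every pure type system that is weakly but not strongly normalizing contains a finite induced
subsystem (on finitely many of its sorts) that is weakly but not strongly normalizing. -/
theorem finite_subsystem (P : Spec S) (hP : WN P) (hS : ¬ SN P) :
    ∃ (n : ℕ) (inc : Fin n → S), Function.Injective inc ∧
      WN (Spec.mk (fun a b => P.ax (inc a) (inc b)) (fun a b c => P.rule (inc a) (inc b) (inc c))) ∧
      ¬ SN (Spec.mk (fun a b => P.ax (inc a) (inc b))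
        (fun a b c => P.rule (inc a) (inc b) (inc c))) := by
  classical
  unfold SN at hS
  simp only [not_forall, not_not] at hS
  obtain ⟨M, ⟨Γ, N, hMN⟩, ⟨r, hr0, hr⟩⟩ := hS
  -- a finite set of sorts carrying a derivation that makes `M` legal
  obtain ⟨F, ⟨s₀, hs₀⟩, hF⟩ : ∃ F : Finset S, F.Nonempty ∧
      (Typing (P.restrict F) Γ M N ∨ Typing (P.restrict F) Γ N M) := by
    rcases hMN with h | h
    · obtain ⟨F, hF, h1⟩ := h.exists_finite
      exact ⟨F, hF, Or.inl h1⟩
    · obtain ⟨F, hF, h1⟩ := h.exists_finite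
      exact ⟨F, hF, Or.inr h1⟩
  let e : {x // x ∈ F} ≃ Fin F.card := F.equivFin
  let inc : Fin F.card → S := fun a => (e.symm a).1
  let ret : S → Fin F.card := fun s => if h : s ∈ F then e ⟨s, h⟩ else e ⟨s₀, hs₀⟩
  have hir : ∀ s ∈ F, inc (ret s) = s := by
    intro s hs
    simp [inc, ret, hs]
  have hinj : Function.Injective inc := by
    intro a b hab
    exact e.symm.injective (Subtype.ext hab)
  let Q : Spec (Fin F.card) :=
    { ax := fun a b => P.ax (inc a) (inc b)
      rule := fun a b c => P.rule (inc a) (inc b) (inc c) }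
  have hQwn : WN Q := by
    rintro M' ⟨Γ', N', h'⟩
    have hleg : Legal P (Tm.map inc M') := by
      rcases h' with h | h
      · exact ⟨_, _, Or.inl (h.map inc (fun _ _ h => h) (fun _ _ _ h => h))⟩
      · exact ⟨_, _, Or.inr (h.map inc (fun _ _ h => h) (fun _ _ _ h => h))⟩
    obtain ⟨Z, hZ, hnf⟩ := hP _ hleg
    obtain ⟨Z', h1, h2⟩ := star_reflect inc M' Z hZ
    refine ⟨Z', h1, fun W hW => ?_⟩
    subst h2
    exact hnf _ (hW.map inc)
  have hax : ∀ s₁ s₂, (P.restrict F).ax s₁ s₂ → Q.ax (ret s₁) (ret s₂) := by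
    rintro s₁ s₂ ⟨h, h1, h2⟩
    show P.ax (inc (ret s₁)) (inc (ret s₂))
    rw [hir _ h1, hir _ h2]; exact h
  have hrule : ∀ s₁ s₂ s₃, (P.restrict F).rule s₁ s₂ s₃ → Q.rule (ret s₁) (ret s₂) (ret s₃) := by
    rintro s₁ s₂ s₃ ⟨h, h1, h2, h3⟩
    show P.rule (inc (ret s₁)) (inc (ret s₂)) (inc (ret s₃))
    rw [hir _ h1, hir _ h2, hir _ h3]; exact h
  have hleg : Legal Q (Tm.map ret M) := by
    rcases hF with h | h
    · exact ⟨_, _, Or.inl (h.map ret hax hrule)⟩
    · exact ⟨_, _, Or.inr (h.map ret hax hrule)⟩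
  refine ⟨F.card, inc, hinj, hQwn, fun hsn => ?_⟩
  exact hsn _ hleg ⟨fun n => Tm.map ret (r n), by simp [hr0], fun n => (hr n).map ret⟩

/-- If weak normalization implies strong normalization for every pure type system whose set of
sorts is `Fin n`, then it does so for every pure type system. -/
theorem finite_reduction
    (hfin : ∀ (n : ℕ) (Q : Spec (Fin n)), WN Q → SN Q) (P : Spec S) (hP : WN P) : SN P := by
  by_contra hS
  obtain ⟨n, inc, _, h1, h2⟩ := finite_subsystem P hP hS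
  exact h2 (hfin n _ h1)

end Vale.Agent.P340
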